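import Mathlib
import Vale.Agent.Lib.P080.QCCrit
import Vale.Agent.Lib.P080.Summit
import Vale.Agent.Lib.P080.RefinedAsm

namespace Vale.Agent.Results.P080.CombinedGradientRegularity

open Vale.Agent.Lib.P080

/-- Four results on the gradient of infinity-harmonic functions, none of which assumes
differentiability. `E` is any finite-dimensional real inner product space of positive
dimension (for instance `ℝ^d` with its Euclidean norm, `d ≥ 1`).

For every open `Ω ⊆ E` and every infinity-harmonic `u` on `Ω`: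

(A) if `u` is quasi-concave or quasi-convex on some ball around each point of `Ω`, then `u`
is continuously differentiable on `Ω`, each critical point has a neighbourhood on which `u`
is constant, and if `Ω` is connected then `u` is constant or its derivative vanishes nowhere;

(B) for every `R > 0`, let `G` be the set of points that are a maximum point or a minimum
point of `u` over some closed ball of radius `R` inside `Ω` having the point on its boundary
sphere; then `u` is differentiable at every point of `G`, its derivative is continuous on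
`G`, every closed ball of radius `R` inside `Ω` has such a maximum point and such a minimum
point on its sphere, and `u` is continuously differentiable on every open set contained in
`G`.

For the open unit ball `B` of `E`, every infinity-harmonic `u` on `B` with `|u| ≤ 1` and all
`x, y` in the closed ball of radius `1/2`:

(C) if `u` is quasi-concave or quasi-convex on `B`, then `u` is differentiable at `x` and `y`
and `‖Du(x) - Du(y)‖ ≤ 160 · 2 ^ (-√(log₂ (1 / (4 ‖x - y‖)) / 8000))` when
`0 < ‖x - y‖ < 1/4`;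

(D) if `0 < R < 1/4` and `x` and `y` belong to the set `G` of (B) for `Ω = B`, then `u` is
differentiable at `x` and `y` and
`‖Du(x) - Du(y)‖ ≤ 400 · 2 ^ (-√(log₂ (R / ‖x - y‖) / 2000))` when `0 < ‖x - y‖ < R`. -/
theorem result (E : Type) [NormedAddCommGroup E] [InnerProductSpace ℝ E] [CompleteSpace E]
    [FiniteDimensional ℝ E] [Nontrivial E] :
    (∀ (Ω : Set E) (u : E → ℝ), IsOpen Ω → IsInfinityHarmonicOn u Ω →
      ((∀ x₀ ∈ Ω, ∃ ρ > (0 : ℝ), Metric.ball x₀ ρ ⊆ Ω ∧
          (QuasiconcaveOn ℝ (Metric.ball x₀ ρ) u ∨ QuasiconvexOn ℝ (Metric.ball x₀ ρ) u)) →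
        ContDiffOn ℝ 1 u Ω ∧
        (∀ x ∈ Ω, fderiv ℝ u x = 0 → ∀ᶠ y in nhds x, u y = u x) ∧
        (IsPreconnected Ω → (∀ x ∈ Ω, ∀ y ∈ Ω, u x = u y) ∨ ∀ x ∈ Ω, fderiv ℝ u x ≠ 0)) ∧
      (∀ R : ℝ, 0 < R →
        (∀ x, IsSummit u Ω R x ∨ IsPit u Ω R x → DifferentiableAt ℝ u x) ∧
        ContinuousOn (fderiv ℝ u) {x | IsSummit u Ω R x ∨ IsPit u Ω R x} ∧
        (∀ z, Metric.closedBall z R ⊆ Ω →
          (∃ x ∈ Metric.sphere z R, IsSummit u Ω R x) ∧
            (∃ x ∈ Metric.sphere z R, IsPit u Ω R x)) ∧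
        (∀ U, IsOpen U → U ⊆ {x | IsSummit u Ω R x ∨ IsPit u Ω R x} → ContDiffOn ℝ 1 u U))) ∧
    (∀ (B : Set E) (u : E → ℝ), B = Metric.ball 0 1 → IsInfinityHarmonicOn u B →
      (∀ x ∈ B, |u x| ≤ 1) → ∀ x y : E, ‖x‖ ≤ 1 / 2 → ‖y‖ ≤ 1 / 2 →
      ((QuasiconcaveOn ℝ B u ∨ QuasiconvexOn ℝ B u) →
        DifferentiableAt ℝ u x ∧ DifferentiableAt ℝ u y ∧
        (0 < ‖x - y‖ → ‖x - y‖ < 1 / 4 →
          ‖fderiv ℝ u x - fderiv ℝ u y‖
            ≤ 160 * (2 : ℝ) ^ (-√(Real.logb 2 (1 / (4 * ‖x - y‖)) / 8000)))) ∧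
      (∀ R : ℝ, 0 < R → R < 1 / 4 → (IsSummit u B R x ∨ IsPit u B R x) →
        (IsSummit u B R y ∨ IsPit u B R y) →
        DifferentiableAt ℝ u x ∧ DifferentiableAt ℝ u y ∧
        (0 < ‖x - y‖ → ‖x - y‖ < R →
          ‖fderiv ℝ u x - fderiv ℝ u y‖
            ≤ 400 * (2 : ℝ) ^ (-√(Real.logb 2 (R / ‖x - y‖) / 2000))))) := by
  have hproper : ProperSpace E := FiniteDimensional.proper_real E
  refine ⟨?_, ?_⟩
  · intro Ω u hΩ hu
    refine ⟨?_, ?_⟩
    · intro hloc
      have hloc' : ∀ x₀ ∈ Ω, ∃ ρ > (0 : ℝ), Metric.ball x₀ ρ ⊆ Ω ∧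
          (QCOn u (Metric.ball x₀ ρ) ∨ QCOn (fun x => -u x) (Metric.ball x₀ ρ)) := by
        intro x₀ hx₀
        obtain ⟨ρ, hρ, hsub, h | h⟩ := hloc x₀ hx₀
        · refine ⟨ρ, hρ, hsub, Or.inl ?_⟩
          intro x hx y hy w hw
          have hc := h (min (u x) (u y))
          have hx' : x ∈ {z | z ∈ Metric.ball x₀ ρ ∧ min (u x) (u y) ≤ u z} :=
            ⟨hx, min_le_left _ _⟩
          have hy' : y ∈ {z | z ∈ Metric.ball x₀ ρ ∧ min (u x) (u y) ≤ u z} :=
            ⟨hy, min_le_right _ _⟩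
          exact (hc.segment_subset hx' hy' hw).2
        · refine ⟨ρ, hρ, hsub, Or.inr ?_⟩
          intro x hx y hy w hw
          have hc := h (max (u x) (u y))
          have hx' : x ∈ {z | z ∈ Metric.ball x₀ ρ ∧ u z ≤ max (u x) (u y)} :=
            ⟨hx, le_max_left _ _⟩
          have hy' : y ∈ {z | z ∈ Metric.ball x₀ ρ ∧ u z ≤ max (u x) (u y)} :=
            ⟨hy, le_max_right _ _⟩
          have := (hc.segment_subset hx' hy' hw).2
          show min (-u x) (-u y) ≤ -u w
          rw [min_neg_neg]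
          linarith
      exact ⟨contDiffOn_of_locally_qc' hΩ hu hloc',
        fun x hx h0 => eventually_const_of_crit_locally_qc hΩ hu hloc' hx h0,
        fun hΩc => const_or_noncrit_of_locally_qc hΩ hΩc hu hloc'⟩
    · intro R hR
      exact ⟨fun x hx => differentiableAt_of_summit_or_pit hΩ hu hR hx,
        fderiv_continuousOn_summit_pit hΩ hu hR,
        fun z hz => exists_summit_pit_on_sphere hu hR hz,
        fun U hU hUG => contDiffOn_of_subset_summit_pit hΩ hu hR hU hUG⟩
  · intro B u hB hu hbd x y hx hy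
    subst hB
    exact ⟨fun hq => refined_qc hu hbd hq hx hy,
      fun R hR hR4 hex hey => refined_sx hu hbd hR hR4 hx hy hex hey⟩

end Vale.Agent.Results.P080.CombinedGradientRegularity
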