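import Mathlib
import Vale.Agent.Lib.P080.QCCrit

namespace Vale.Agent.Results.P080.QuasiConcaveRegularity

open Vale.Agent.Lib.P080

/-- An infinity-harmonic function on an open subset of `ℝ^d` (any `d`) that is quasi-concave
or quasi-convex on some ball around each point is continuously differentiable; each of its
critical points has a neighbourhood on which it is constant; and on a connected open set it
is either constant or has nowhere vanishing derivative. No differentiability is assumed. -/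
theorem result (d : ℕ) (Ω : Set (EuclideanSpace ℝ (Fin d))) (hΩ : IsOpen Ω)
    (u : EuclideanSpace ℝ (Fin d) → ℝ) (hu : IsInfinityHarmonicOn u Ω)
    (hloc : ∀ x₀ ∈ Ω, ∃ ρ > (0 : ℝ), Metric.ball x₀ ρ ⊆ Ω ∧
      (QuasiconcaveOn ℝ (Metric.ball x₀ ρ) u ∨ QuasiconvexOn ℝ (Metric.ball x₀ ρ) u)) :
    ContDiffOn ℝ 1 u Ω ∧
    (∀ x ∈ Ω, fderiv ℝ u x = 0 → ∀ᶠ y in nhds x, u y = u x) ∧
    (IsPreconnected Ω → (∀ x ∈ Ω, ∀ y ∈ Ω, u x = u y) ∨ ∀ x ∈ Ω, fderiv ℝ u x ≠ 0) := by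
  have hloc' : ∀ x₀ ∈ Ω, ∃ ρ > (0 : ℝ), Metric.ball x₀ ρ ⊆ Ω ∧
      (QCOn u (Metric.ball x₀ ρ) ∨ QCOn (fun x => -u x) (Metric.ball x₀ ρ)) := by
    intro x₀ hx₀
    obtain ⟨ρ, hρ, hsub, h | h⟩ := hloc x₀ hx₀
    · refine ⟨ρ, hρ, hsub, Or.inl ?_⟩
      intro x hx y hy w hw
      have hc := h (min (u x) (u y))
      have hx' : x ∈ {z | z ∈ Metric.ball x₀ ρ ∧ min (u x) (u y) ≤ u z} :=
        ⟨hx, min_le_left _ _⟩
      have hy' : y ∈ {z | z ∈ Metric.ball x₀ ρ ∧ min (u x) (u y) ≤ u z} :=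
        ⟨hy, min_le_right _ _⟩
      exact (hc.segment_subset hx' hy' hw).2
    · refine ⟨ρ, hρ, hsub, Or.inr ?_⟩
      intro x hx y hy w hw
      have hc := h (max (u x) (u y))
      have hx' : x ∈ {z | z ∈ Metric.ball x₀ ρ ∧ u z ≤ max (u x) (u y)} :=
        ⟨hx, le_max_left _ _⟩
      have hy' : y ∈ {z | z ∈ Metric.ball x₀ ρ ∧ u z ≤ max (u x) (u y)} :=
        ⟨hy, le_max_right _ _⟩
      have := (hc.segment_subset hx' hy' hw).2
      show min (-u x) (-u y) ≤ -u w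
      rw [min_neg_neg]
      linarith
  exact ⟨contDiffOn_of_locally_qc' hΩ hu hloc',
    fun x hx h0 => eventually_const_of_crit_locally_qc hΩ hu hloc' hx h0,
    fun hΩc => const_or_noncrit_of_locally_qc hΩ hΩc hu hloc'⟩

end Vale.Agent.Results.P080.QuasiConcaveRegularity
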