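import Mathlib
import Vale.Agent.Lib.P080.Liouville
import Vale.Agent.Lib.P080.ExplicitUnit
import Vale.Agent.Lib.P080.SxUnit

namespace Vale.Agent.Results.P080.UniformExplicitEstimate

open Vale.Agent.Lib.P080

/-- Explicit interior gradient estimates, the same in every finite dimension. Below `E` is any
finite-dimensional real inner product space (for instance `ℝ^d` with its Euclidean norm) and
`B` is its open unit ball.

First part (all infinity-harmonic functions): let `u` be infinity-harmonic on `B` with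
`|u| ≤ 1`, let `0 < R < 1/4`, and let `x, y` be points of the closed ball of radius `1/2` each
of which is a maximum point or a minimum point of `u` over a closed ball of radius `R` inside
`B` having the point on its sphere. Then `u` is differentiable at `x` and `y`, and for every
integer `n ≥ 1`, `‖Du(x) - Du(y)‖ ≤ 280 / n` as soon as `‖x - y‖ < R n⁻² (160 n²)^(-n³)`.

Second part (quasi-concave or quasi-convex functions): if `u` is infinity-harmonic on `B`
with `|u| ≤ 1` and quasi-concave or quasi-convex on `B`, then `u` is differentiable at all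
`x, y` of the closed ball of radius `1/2`, and for every integer `n ≥ 1`,
`‖Du(x) - Du(y)‖ ≤ 160 / n` as soon as `‖x - y‖ < (1/4) (24 n²)^(-n³)`.

Third part (a Liouville theorem): every infinity-harmonic function on the whole space that is
quasi-concave or quasi-convex and grows at most linearly is affine. -/
theorem result :
    (∀ (E : Type) [NormedAddCommGroup E] [InnerProductSpace ℝ E] [CompleteSpace E]
        [FiniteDimensional ℝ E],
      ∀ B : Set E, B = Metric.ball 0 1 →
      ∀ u : E → ℝ, IsInfinityHarmonicOn u B → (∀ x ∈ B, |u x| ≤ 1) →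
      ∀ R : ℝ, 0 < R → R < 1 / 4 →
        ∀ x y : E, ‖x‖ ≤ 1 / 2 → ‖y‖ ≤ 1 / 2 →
        (IsSummit u B R x ∨ IsPit u B R x) → (IsSummit u B R y ∨ IsPit u B R y) →
        ∃ Dx Dy : E →L[ℝ] ℝ, HasFDerivAt u Dx x ∧ HasFDerivAt u Dy y ∧
          ∀ n : ℕ, 0 < n →
            ‖x - y‖ * ((n : ℝ) ^ 2 * (160 * (n : ℝ) ^ 2) ^ (n ^ 3)) < R →
            ‖Dx - Dy‖ ≤ 280 / n) ∧
    (∀ (E : Type) [NormedAddCommGroup E] [InnerProductSpace ℝ E] [CompleteSpace E]
        [FiniteDimensional ℝ E],
      ∀ B : Set E, B = Metric.ball 0 1 →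
      ∀ u : E → ℝ, IsInfinityHarmonicOn u B → (∀ x ∈ B, |u x| ≤ 1) →
        (QuasiconcaveOn ℝ B u ∨ QuasiconvexOn ℝ B u) →
        ∀ x y : E, ‖x‖ ≤ 1 / 2 → ‖y‖ ≤ 1 / 2 →
        ∃ Dx Dy : E →L[ℝ] ℝ, HasFDerivAt u Dx x ∧ HasFDerivAt u Dy y ∧
          ∀ n : ℕ, 0 < n → ‖x - y‖ * (4 * (24 * (n : ℝ) ^ 2) ^ (n ^ 3)) < 1 →
            ‖Dx - Dy‖ ≤ 160 / n) ∧
    (∀ (E : Type) [NormedAddCommGroup E] [InnerProductSpace ℝ E] [CompleteSpace E]
        [FiniteDimensional ℝ E],
      ∀ u : E → ℝ, IsInfinityHarmonicOn u Set.univ →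
        (QuasiconcaveOn ℝ Set.univ u ∨ QuasiconvexOn ℝ Set.univ u) →
        (∃ A C : ℝ, ∀ x, |u x| ≤ A + C * ‖x‖) →
        ∃ (L : E →L[ℝ] ℝ) (c : ℝ), ∀ x, u x = L x + c) := by
  refine ⟨?_, ?_, ?_⟩
  · intro E _ _ _ _ B hB u hu hbd R hR hR4 x y hx hy hex hey
    subst hB
    have hproper : ProperSpace E := FiniteDimensional.proper_real E
    obtain ⟨hdx, hdy, h⟩ := sx_unit hu hbd hR hR4 hx hy hex hey
    exact ⟨fderiv ℝ u x, fderiv ℝ u y, hdx.hasFDerivAt, hdy.hasFDerivAt, h⟩
  · intro E _ _ _ _ B hB u hu hbd hq x y hx hy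
    subst hB
    have hproper : ProperSpace E := FiniteDimensional.proper_real E
    obtain ⟨hdx, hdy, h⟩ := explicit_unit hu hbd hq hx hy
    exact ⟨fderiv ℝ u x, fderiv ℝ u y, hdx.hasFDerivAt, hdy.hasFDerivAt, h⟩
  · intro E _ _ _ _ u hu hq hgrow
    have hproper : ProperSpace E := FiniteDimensional.proper_real E
    rcases subsingleton_or_nontrivial E with hs | hnt
    · exact ⟨0, u 0, fun x => by rw [Subsingleton.elim x 0]; simp⟩
    · obtain ⟨A, C, hAC⟩ := hgrow
      exact affine_of_entire_quasi hu hq hAC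

end Vale.Agent.Results.P080.UniformExplicitEstimate
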