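import Mathlib
import Vale.Agent.Lib.P080.RefinedAsm

namespace Vale.Agent.Results.P080.UniformRefinedEstimate

open Vale.Agent.Lib.P080

/-- Explicit interior moduli of continuity of the gradient of the form
`C 2 ^ (-√(log₂ (1 / t) / k))`, the same in every finite dimension. Below `E` is any
finite-dimensional real inner product space (for instance `ℝ^d` with its Euclidean norm) and
`B` is its open unit ball.

First part (quasi-concave or quasi-convex functions): if `u` is infinity-harmonic on `B` with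
`|u| ≤ 1` and quasi-concave or quasi-convex on `B`, then `u` is differentiable at all `x, y`
of the closed ball of radius `1/2`, and
`‖Du(x) - Du(y)‖ ≤ 160 · 2 ^ (-√(log₂ (1 / (4 ‖x - y‖)) / 8000))` when `0 < ‖x - y‖ < 1/4`.

Second part (all infinity-harmonic functions): let `u` be infinity-harmonic on `B` with
`|u| ≤ 1`, let `0 < R < 1/4`, and let `x, y` be points of the closed ball of radius `1/2` each
of which is a maximum point or a minimum point of `u` over a closed ball of radius `R` inside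
`B` having the point on its sphere. Then `u` is differentiable at `x` and `y`, and
`‖Du(x) - Du(y)‖ ≤ 400 · 2 ^ (-√(log₂ (R / ‖x - y‖) / 2000))` when `0 < ‖x - y‖ < R`. -/
theorem result :
    (∀ (E : Type) [NormedAddCommGroup E] [InnerProductSpace ℝ E] [CompleteSpace E]
        [FiniteDimensional ℝ E],
      ∀ B : Set E, B = Metric.ball 0 1 →
      ∀ u : E → ℝ, IsInfinityHarmonicOn u B → (∀ x ∈ B, |u x| ≤ 1) →
        (QuasiconcaveOn ℝ B u ∨ QuasiconvexOn ℝ B u) →
        ∀ x y : E, ‖x‖ ≤ 1 / 2 → ‖y‖ ≤ 1 / 2 →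
        ∃ Dx Dy : E →L[ℝ] ℝ, HasFDerivAt u Dx x ∧ HasFDerivAt u Dy y ∧
          (0 < ‖x - y‖ → ‖x - y‖ < 1 / 4 →
            ‖Dx - Dy‖ ≤ 160 * (2 : ℝ) ^ (-√(Real.logb 2 (1 / (4 * ‖x - y‖)) / 8000)))) ∧
    (∀ (E : Type) [NormedAddCommGroup E] [InnerProductSpace ℝ E] [CompleteSpace E]
        [FiniteDimensional ℝ E],
      ∀ B : Set E, B = Metric.ball 0 1 →
      ∀ u : E → ℝ, IsInfinityHarmonicOn u B → (∀ x ∈ B, |u x| ≤ 1) →
      ∀ R : ℝ, 0 < R → R < 1 / 4 →
        ∀ x y : E, ‖x‖ ≤ 1 / 2 → ‖y‖ ≤ 1 / 2 →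
        (IsSummit u B R x ∨ IsPit u B R x) → (IsSummit u B R y ∨ IsPit u B R y) →
        ∃ Dx Dy : E →L[ℝ] ℝ, HasFDerivAt u Dx x ∧ HasFDerivAt u Dy y ∧
          (0 < ‖x - y‖ → ‖x - y‖ < R →
            ‖Dx - Dy‖ ≤ 400 * (2 : ℝ) ^ (-√(Real.logb 2 (R / ‖x - y‖) / 2000)))) := by
  refine ⟨?_, ?_⟩
  · intro E _ _ _ _ B hB u hu hbd hq x y hx hy
    subst hB
    have hproper : ProperSpace E := FiniteDimensional.proper_real E
    obtain ⟨hdx, hdy, h⟩ := refined_qc hu hbd hq hx hy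
    exact ⟨fderiv ℝ u x, fderiv ℝ u y, hdx.hasFDerivAt, hdy.hasFDerivAt, h⟩
  · intro E _ _ _ _ B hB u hu hbd R hR hR4 x y hx hy hex hey
    subst hB
    have hproper : ProperSpace E := FiniteDimensional.proper_real E
    obtain ⟨hdx, hdy, h⟩ := refined_sx hu hbd hR hR4 hx hy hex hey
    exact ⟨fderiv ℝ u x, fderiv ℝ u y, hdx.hasFDerivAt, hdy.hasFDerivAt, h⟩

end Vale.Agent.Results.P080.UniformRefinedEstimate
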